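import Vale.Agent.P193.Final

namespace Vale.Agent.Results.P193.BooneHigman

universe u

theorem result (G : Type u) [Group G] (n : ℕ) (gen : Fin n → G)
    (hgen : Subgroup.closure (Set.range gen) = ⊤)
    (hWP : ComputablePred fun w : List (Fin n × Bool) =>
      FreeGroup.lift gen (FreeGroup.mk w) = 1) :
    ∃ (H : Type) (_ : Group H), Group.IsFinitelyPresented H ∧ IsSimpleGroup H ∧
      ∃ f : G →* H, Function.Injective f := by
  have hs : Function.Surjective (FreeGroup.lift gen) := by
    rw [← MonoidHom.range_eq_top, FreeGroup.range_lift_eq_closure, hgen]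
  let e := QuotientGroup.quotientKerEquivOfSurjective _ hs
  have he : ∀ a, e (FreeGroup.of a : FreeGroup (Fin n)) = gen a := fun a => FreeGroup.lift_apply_of
  obtain ⟨H, _, h1, h2, f, hf⟩ := Vale.Agent.P193.boone_higman
    (FreeGroup (Fin n) ⧸ (FreeGroup.lift gen).ker) n (fun a => e.symm (gen a)) (by
      have := congrArg (Subgroup.map e.symm.toMonoidHom) hgen
      rw [MonoidHom.map_closure, ← Set.range_comp,
        Subgroup.map_top_of_surjective _ e.symm.surjective] at this
      exact this) (hWP.of_eq fun w => by
      rw [Vale.Agent.P193.lift_mk]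
      have := Vale.Agent.P193.map_ev e.symm.toMonoidHom gen w
      simp only [MulEquiv.coe_toMonoidHom] at this
      rw [← this, map_eq_one_iff _ e.symm.injective])
  exact ⟨H, inferInstance, h1, h2, f.comp e.symm.toMonoidHom, hf.comp e.symm.injective⟩

end Vale.Agent.Results.P193.BooneHigman
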